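import Vale.Agent.P062.Game

/-!
# P062: a kernel-checkable certificate format for Maker wins

Sets of cells are bit masks with rows of length 32; the origin has number `16 * 32 + 16`.
-/

namespace P062

/-- The cell with number `i`. -/
def cellOf (i : ℕ) : Cell := (((i % 32 : ℕ) : ℤ) - 16, ((i / 32 : ℕ) : ℤ) - 16)

theorem cellOf_inj {i j : ℕ} (h : cellOf i = cellOf j) : i = j := by
  unfold cellOf at h
  rw [Prod.mk.injEq] at h
  omega

/-- The set of cells encoded by a bit mask. -/
def S (m : ℕ) : Set Cell := {c | ∃ i, m.testBit i = true ∧ cellOf i = c}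

theorem S_lor (a b : ℕ) : S (Nat.lor a b) = S a ∪ S b := by
  have h : ∀ i, (Nat.lor a b).testBit i = (a.testBit i || b.testBit i) := fun i =>
    Nat.testBit_or a b i
  ext c
  constructor
  · rintro ⟨i, hi, rfl⟩
    rw [h, Bool.or_eq_true] at hi
    exact hi.imp (fun h => ⟨i, h, rfl⟩) (fun h => ⟨i, h, rfl⟩)
  · rintro (⟨i, hi, rfl⟩ | ⟨i, hi, rfl⟩)
    · exact ⟨i, by rw [h, hi, Bool.true_or], rfl⟩
    · exact ⟨i, by rw [h, hi, Bool.or_true], rfl⟩

theorem S_land (a b : ℕ) : S (Nat.land a b) = S a ∩ S b := by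
  have h : ∀ i, (Nat.land a b).testBit i = (a.testBit i && b.testBit i) := fun i =>
    Nat.testBit_and a b i
  ext c
  constructor
  · rintro ⟨i, hi, rfl⟩
    rw [h, Bool.and_eq_true] at hi
    exact ⟨⟨i, hi.1, rfl⟩, ⟨i, hi.2, rfl⟩⟩
  · rintro ⟨⟨i, hi, rfl⟩, ⟨j, hj, hij⟩⟩
    have := cellOf_inj hij
    subst this
    exact ⟨j, by rw [h, hi, hj, Bool.true_and], rfl⟩

theorem testBit_bit (i j : ℕ) : (Nat.shiftLeft 1 i).testBit j = decide (j = i) := by
  have h1 : Nat.shiftLeft 1 i = 2 ^ i := Nat.one_shiftLeft i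
  rw [h1, Nat.testBit_two_pow]
  exact decide_eq_decide.mpr eq_comm

theorem S_bit (i : ℕ) : S (Nat.shiftLeft 1 i) = {cellOf i} := by
  ext c
  rw [Set.mem_singleton_iff]
  constructor
  · rintro ⟨j, hj, rfl⟩
    rw [testBit_bit, decide_eq_true_eq] at hj
    rw [hj]
  · rintro rfl
    exact ⟨i, by rw [testBit_bit, decide_eq_true_eq], rfl⟩

theorem S_zero : S 0 = ∅ := by
  ext c
  rw [Set.mem_empty_iff_false, iff_false]
  rintro ⟨i, hi, _⟩
  rw [Nat.zero_testBit] at hi
  exact Bool.false_ne_true hi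

/-- removing a cell from a mask -/
theorem S_remove (m i : ℕ) :
    S (Nat.xor m (Nat.land m (Nat.shiftLeft 1 i))) = S m \ {cellOf i} := by
  have h : ∀ j, (Nat.xor m (Nat.land m (Nat.shiftLeft 1 i))).testBit j =
      (m.testBit j && !decide (j = i)) := by
    intro j
    have h1 : (Nat.xor m (Nat.land m (Nat.shiftLeft 1 i))).testBit j =
        (m.testBit j ^^ (Nat.land m (Nat.shiftLeft 1 i)).testBit j) := Nat.testBit_xor _ _ _
    have h2 : (Nat.land m (Nat.shiftLeft 1 i)).testBit j =
        (m.testBit j && (Nat.shiftLeft 1 i).testBit j) := Nat.testBit_and _ _ _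
    rw [h1, h2, testBit_bit]
    cases m.testBit j <;> cases decide (j = i) <;> rfl
  ext c
  rw [Set.mem_sdiff, Set.mem_singleton_iff]
  constructor
  · rintro ⟨j, hj, rfl⟩
    rw [h, Bool.and_eq_true, Bool.not_eq_true', decide_eq_false_iff_not] at hj
    exact ⟨⟨j, hj.1, rfl⟩, fun e => hj.2 (cellOf_inj e)⟩
  · rintro ⟨⟨j, hj, rfl⟩, hne⟩
    refine ⟨j, ?_, rfl⟩
    rw [h, Bool.and_eq_true, Bool.not_eq_true', decide_eq_false_iff_not]
    exact ⟨hj, fun e => hne (by rw [e])⟩

/-- Bit masks of the eight orientations of Snaky. -/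
def copyMask : ℕ → ℕ
  | 0 => 103079215119
  | 1 => 64424509464
  | 2 => 12884901918
  | 3 => 128849018883
  | 4 => 680564734079561414487988971722172792833
  | 5 => 340282367000166625996085689111906615298
  | 6 => 340282367158622951043061108368409100290
  | _ => 680564734000333251992171378210928328705

/-- Evaluate the number `n` before passing it on (this only matters for kernel evaluation). -/
noncomputable def force {α : Type} (n : ℕ) (f : ℕ → α) : α :=
  Nat.rec (f 0) (fun m _ => f (Nat.succ m)) n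

theorem force_eq {α : Type} (n : ℕ) (f : ℕ → α) : force n f = f n := by
  cases n <;> rfl

/-- Conjunction, evaluated from left to right. -/
noncomputable def guard (x y : Bool) : Bool := Bool.rec false y x

theorem guard_eq {x y : Bool} : guard x y = true ↔ x = true ∧ y = true := by
  cases x <;> cases y <;> decide

theorem copy_of_idx {m t : ℕ} (a b : ℤ) (ha : a = 1 ∨ a = -1) (hb : b = 1 ∨ b = -1)
    (mx my : ℤ) (ht : t % 32 + 5 ≤ 32)
    (h : ∀ p ∈ snaky, ∃ x y : ℕ, x ≤ 4 ∧ (a * p.1, b * p.2) = ((x : ℤ) - mx, (y : ℤ) - my) ∧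
      m.testBit (32 * y + x) = true) :
    ∃ C : Finset Cell, IsCopy C ∧ (C : Set Cell) ⊆ S (Nat.shiftLeft m t) := by
  refine ⟨_, ⟨a, b, (((t % 32 : ℕ) : ℤ) - 16 + mx, ((t / 32 : ℕ) : ℤ) - 16 + my), ha, hb,
    Or.inl rfl⟩, ?_⟩
  intro c hc
  rw [Finset.coe_image, Set.mem_image] at hc
  obtain ⟨p, hp, rfl⟩ := hc
  obtain ⟨x, y, hx, hxy, hbit⟩ := h p hp
  rw [Prod.mk.injEq] at hxy
  refine ⟨32 * y + x + t, ?_, ?_⟩
  · have h5 : (m <<< t).testBit (32 * y + x + t) = true := by
      rw [Nat.testBit_shiftLeft]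
      simp only [ge_iff_le, Nat.le_add_left, decide_true, Bool.true_and, Nat.add_sub_cancel]
      exact hbit
    exact h5
  · unfold cellOf
    have h1 : (32 * y + x + t) % 32 = t % 32 + x := by omega
    have h2 : (32 * y + x + t) / 32 = t / 32 + y := by omega
    rw [h1, h2, hxy.1, hxy.2]
    push_cast
    ext <;> dsimp only <;> ring

theorem copy_of_idx' {m t : ℕ} (a b : ℤ) (ha : a = 1 ∨ a = -1) (hb : b = 1 ∨ b = -1)
    (mx my : ℤ) (ht : t % 32 + 5 ≤ 32)
    (h : ∀ p ∈ snaky, ∃ x y : ℕ, x ≤ 4 ∧ (a * p.2, b * p.1) = ((x : ℤ) - mx, (y : ℤ) - my) ∧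
      m.testBit (32 * y + x) = true) :
    ∃ C : Finset Cell, IsCopy C ∧ (C : Set Cell) ⊆ S (Nat.shiftLeft m t) := by
  refine ⟨_, ⟨a, b, (((t % 32 : ℕ) : ℤ) - 16 + mx, ((t / 32 : ℕ) : ℤ) - 16 + my), ha, hb,
    Or.inr rfl⟩, ?_⟩
  intro c hc
  rw [Finset.coe_image, Set.mem_image] at hc
  obtain ⟨p, hp, rfl⟩ := hc
  obtain ⟨x, y, hx, hxy, hbit⟩ := h p hp
  rw [Prod.mk.injEq] at hxy
  refine ⟨32 * y + x + t, ?_, ?_⟩
  · have h5 : (m <<< t).testBit (32 * y + x + t) = true := by
      rw [Nat.testBit_shiftLeft]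
      simp only [ge_iff_le, Nat.le_add_left, decide_true, Bool.true_and, Nat.add_sub_cancel]
      exact hbit
    exact h5
  · unfold cellOf
    have h1 : (32 * y + x + t) % 32 = t % 32 + x := by omega
    have h2 : (32 * y + x + t) / 32 = t / 32 + y := by omega
    rw [h1, h2, hxy.1, hxy.2]
    push_cast
    ext <;> dsimp only <;> ring

theorem mem_snaky {p : Cell} (hp : p ∈ snaky) : p = (0, 0) ∨ p = (1, 0) ∨ p = (2, 0) ∨
    p = (3, 0) ∨ p = (3, 1) ∨ p = (4, 1) := by
  simpa only [snaky, Finset.mem_insert, Finset.mem_singleton] using hp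

theorem isCopy_mask (k t : ℕ) (ht : t % 32 + 5 ≤ 32) :
    ∃ C : Finset Cell, IsCopy C ∧ (C : Set Cell) ⊆ S (Nat.shiftLeft (copyMask k) t) := by
  match k with
  | 0 =>
    refine copy_of_idx (m := 103079215119) 1 1 (Or.inl rfl) (Or.inl rfl) 0 0 ht fun p hp => ?_
    rcases mem_snaky hp with rfl | rfl | rfl | rfl | rfl | rfl
    · exact ⟨0, 0, by decide, by decide, by decide⟩
    · exact ⟨1, 0, by decide, by decide, by decide⟩
    · exact ⟨2, 0, by decide, by decide, by decide⟩
    · exact ⟨3, 0, by decide, by decide, by decide⟩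
    · exact ⟨3, 1, by decide, by decide, by decide⟩
    · exact ⟨4, 1, by decide, by decide, by decide⟩
  | 1 =>
    refine copy_of_idx (m := 64424509464) 1 (-1) (Or.inl rfl) (Or.inr rfl) 0 1 ht fun p hp => ?_
    rcases mem_snaky hp with rfl | rfl | rfl | rfl | rfl | rfl
    · exact ⟨0, 1, by decide, by decide, by decide⟩
    · exact ⟨1, 1, by decide, by decide, by decide⟩
    · exact ⟨2, 1, by decide, by decide, by decide⟩
    · exact ⟨3, 1, by decide, by decide, by decide⟩
    · exact ⟨3, 0, by decide, by decide, by decide⟩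
    · exact ⟨4, 0, by decide, by decide, by decide⟩
  | 2 =>
    refine copy_of_idx (m := 12884901918) (-1) 1 (Or.inr rfl) (Or.inl rfl) 4 0 ht fun p hp => ?_
    rcases mem_snaky hp with rfl | rfl | rfl | rfl | rfl | rfl
    · exact ⟨4, 0, by decide, by decide, by decide⟩
    · exact ⟨3, 0, by decide, by decide, by decide⟩
    · exact ⟨2, 0, by decide, by decide, by decide⟩
    · exact ⟨1, 0, by decide, by decide, by decide⟩
    · exact ⟨1, 1, by decide, by decide, by decide⟩
    · exact ⟨0, 1, by decide, by decide, by decide⟩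
  | 3 =>
    refine copy_of_idx (m := 128849018883) (-1) (-1) (Or.inr rfl) (Or.inr rfl) 4 1 ht fun p hp => ?_
    rcases mem_snaky hp with rfl | rfl | rfl | rfl | rfl | rfl
    · exact ⟨4, 1, by decide, by decide, by decide⟩
    · exact ⟨3, 1, by decide, by decide, by decide⟩
    · exact ⟨2, 1, by decide, by decide, by decide⟩
    · exact ⟨1, 1, by decide, by decide, by decide⟩
    · exact ⟨1, 0, by decide, by decide, by decide⟩
    · exact ⟨0, 0, by decide, by decide, by decide⟩
  | 4 =>
    refine copy_of_idx' (m := 680564734079561414487988971722172792833) 1 1 (Or.inl rfl) (Or.inl rfl) 0 0 ht fun p hp => ?_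
    rcases mem_snaky hp with rfl | rfl | rfl | rfl | rfl | rfl
    · exact ⟨0, 0, by decide, by decide, by decide⟩
    · exact ⟨0, 1, by decide, by decide, by decide⟩
    · exact ⟨0, 2, by decide, by decide, by decide⟩
    · exact ⟨0, 3, by decide, by decide, by decide⟩
    · exact ⟨1, 3, by decide, by decide, by decide⟩
    · exact ⟨1, 4, by decide, by decide, by decide⟩
  | 5 =>
    refine copy_of_idx' (m := 340282367000166625996085689111906615298) 1 (-1) (Or.inl rfl) (Or.inr rfl) 0 4 ht fun p hp => ?_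
    rcases mem_snaky hp with rfl | rfl | rfl | rfl | rfl | rfl
    · exact ⟨0, 4, by decide, by decide, by decide⟩
    · exact ⟨0, 3, by decide, by decide, by decide⟩
    · exact ⟨0, 2, by decide, by decide, by decide⟩
    · exact ⟨0, 1, by decide, by decide, by decide⟩
    · exact ⟨1, 1, by decide, by decide, by decide⟩
    · exact ⟨1, 0, by decide, by decide, by decide⟩
  | 6 =>
    refine copy_of_idx' (m := 340282367158622951043061108368409100290) (-1) 1 (Or.inr rfl) (Or.inl rfl) 1 0 ht fun p hp => ?_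
    rcases mem_snaky hp with rfl | rfl | rfl | rfl | rfl | rfl
    · exact ⟨1, 0, by decide, by decide, by decide⟩
    · exact ⟨1, 1, by decide, by decide, by decide⟩
    · exact ⟨1, 2, by decide, by decide, by decide⟩
    · exact ⟨1, 3, by decide, by decide, by decide⟩
    · exact ⟨0, 3, by decide, by decide, by decide⟩
    · exact ⟨0, 4, by decide, by decide, by decide⟩
  | k + 7 =>
    refine copy_of_idx' (m := 680564734000333251992171378210928328705) (-1) (-1) (Or.inr rfl) (Or.inr rfl) 1 4 ht fun p hp => ?_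
    rcases mem_snaky hp with rfl | rfl | rfl | rfl | rfl | rfl
    · exact ⟨1, 4, by decide, by decide, by decide⟩
    · exact ⟨1, 3, by decide, by decide, by decide⟩
    · exact ⟨1, 2, by decide, by decide, by decide⟩
    · exact ⟨1, 1, by decide, by decide, by decide⟩
    · exact ⟨0, 1, by decide, by decide, by decide⟩
    · exact ⟨0, 0, by decide, by decide, by decide⟩

/-- Certificates. -/
inductive T : Type
  /-- Maker owns five cells of the copy `(k, t)`; the cell `y` is missing. -/
  | five (k t y : ℕ) : T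
  /-- an earlier result -/
  | ref (i : ℕ) : T
  /-- Maker plays `x`, then `t` is an answer to every move of Breaker. -/
  | mv (x : ℕ) (t : T) : T
  /-- use `a` or `b`, depending on the move of Breaker -/
  | both (a b : T) : T

/-- look up an earlier result -/
noncomputable def look (env : List (ℕ × ℕ)) : ℕ → (ℕ → ℕ → Bool) → Bool :=
  List.rec (motive := fun _ => ℕ → (ℕ → ℕ → Bool) → Bool) (fun _ _ => false)
    (fun p _ ih i κ => Nat.rec (κ p.1 p.2) (fun j _ => ih j κ) i) env

/-- Evaluate a certificate: compute the required set `R`, the union `Z` of the zones and their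
intersection `I`, and pass them on to `κ`. -/
noncomputable def eval (env : List (ℕ × ℕ)) (t : T) : (ℕ → ℕ → ℕ → Bool) → Bool :=
  T.rec (motive := fun _ => (ℕ → ℕ → ℕ → Bool) → Bool)
    (fun k t y κ => guard (Nat.ble (Nat.add (Nat.mod t 32) 5) 32)
      (force (Nat.shiftLeft (copyMask k) t) fun m => force (Nat.shiftLeft 1 y) fun b =>
        force (Nat.xor m (Nat.land m b)) fun R => κ R b b))
    (fun i κ => look env i fun R Z => κ R Z Z)
    (fun x _ ih κ => ih fun R Z I => guard (Nat.beq I 0) (force (Nat.shiftLeft 1 x) fun b =>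
      guard (Nat.beq (Nat.land Z b) 0) (force (Nat.xor R (Nat.land R b)) fun R' =>
        force (Nat.lor Z b) fun Z' => κ R' Z' Z')))
    (fun _ _ ih ih' κ => ih fun R Z I => ih' fun R' Z' I' =>
      force (Nat.lor R R') fun R'' => force (Nat.lor Z Z') fun Z'' =>
        force (Nat.land I I') fun I'' => κ R'' Z'' I'')
    t

/-- Meaning of the list of earlier results. -/
def Env (env : List (ℕ × ℕ)) : Prop := ∀ p ∈ env, W (S p.1) (S p.2)

theorem Env.nil : Env [] := fun _ hp => absurd hp (List.not_mem_nil)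

theorem Env.cons {R Z : ℕ} {env : List (ℕ × ℕ)} (h : W (S R) (S Z)) (henv : Env env) :
    Env ((R, Z) :: env) := by
  intro p hp
  rcases List.mem_cons.mp hp with rfl | hp
  · exact h
  · exact henv p hp

theorem look_sound (env : List (ℕ × ℕ)) (henv : Env env) (i : ℕ) (κ : ℕ → ℕ → Bool)
    (h : look env i κ = true) : ∃ R Z, W (S R) (S Z) ∧ κ R Z = true := by
  induction env generalizing i with
  | nil => exact absurd h Bool.false_ne_true
  | cons p env ih =>
    cases i with
    | zero => exact ⟨p.1, p.2, henv p List.mem_cons_self, h⟩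
    | succ i => exact ih (fun q hq => henv q (List.mem_cons_of_mem _ hq)) i h

theorem W.remove {R Z : ℕ} {x : ℕ} (h : Alt (S R) (S Z) (S 0))
    (_hx : Nat.land Z (Nat.shiftLeft 1 x) = 0) :
    W (S (Nat.xor R (Nat.land R (Nat.shiftLeft 1 x)))) (S (Nat.lor Z (Nat.shiftLeft 1 x))) := by
  rw [S_zero] at h
  have h3 := h.move (cellOf x)
  rw [S_remove, S_lor, S_bit]
  rwa [Set.insert_eq, Set.union_comm] at h3

theorem eval_sound (env : List (ℕ × ℕ)) (henv : Env env) (t : T) :
    ∀ κ : ℕ → ℕ → ℕ → Bool, eval env t κ = true →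
      ∃ R Z I, Alt (S R) (S Z) (S I) ∧ κ R Z I = true := by
  induction t with
  | five k t y =>
    intro κ h
    have h1 : guard (Nat.ble (Nat.add (Nat.mod t 32) 5) 32)
      (force (Nat.shiftLeft (copyMask k) t) fun m => force (Nat.shiftLeft 1 y) fun b =>
        force (Nat.xor m (Nat.land m b)) fun R => κ R b b) = true := h
    rw [guard_eq, force_eq, force_eq, force_eq] at h1
    refine ⟨_, _, _, ?_, h1.2⟩
    obtain ⟨C, hC, hCm⟩ := isCopy_mask k t (Nat.le_of_ble_eq_true h1.1)
    refine W.alt ((W.five hC (cellOf y)).mono ?_ ?_)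
    · rw [S_remove]
      exact Set.sdiff_subset_sdiff_left hCm
    · rw [S_bit]
  | ref i =>
    intro κ h
    have h1 : (look env i fun R Z => κ R Z Z) = true := h
    obtain ⟨R, Z, h2, h3⟩ := look_sound env henv i _ h1
    exact ⟨R, Z, Z, h2.alt, h3⟩
  | mv x t ih =>
    intro κ h
    have h1 : (eval env t fun R Z I => guard (Nat.beq I 0) (force (Nat.shiftLeft 1 x) fun b =>
      guard (Nat.beq (Nat.land Z b) 0) (force (Nat.xor R (Nat.land R b)) fun R' =>
        force (Nat.lor Z b) fun Z' => κ R' Z' Z'))) = true := h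
    obtain ⟨R, Z, I, h2, h3⟩ := ih _ h1
    rw [guard_eq, force_eq, guard_eq, force_eq, force_eq] at h3
    have hI : I = 0 := Nat.eq_of_beq_eq_true h3.1
    subst hI
    exact ⟨_, _, _, (W.remove h2 (Nat.eq_of_beq_eq_true h3.2.1)).alt, h3.2.2⟩
  | both a b ih ih' =>
    intro κ h
    have h1 : (eval env a fun R Z I => eval env b fun R' Z' I' =>
      force (Nat.lor R R') fun R'' => force (Nat.lor Z Z') fun Z'' =>
        force (Nat.land I I') fun I'' => κ R'' Z'' I'') = true := h
    obtain ⟨R, Z, I, h2, h3⟩ := ih _ h1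
    obtain ⟨R', Z', I', h4, h5⟩ := ih' _ h3
    rw [force_eq, force_eq, force_eq] at h5
    refine ⟨_, _, _, ?_, h5⟩
    rw [S_lor, S_lor, S_land]
    exact h2.both h4

theorem subset_of_lor {a b : ℕ} (h : Nat.lor a b = b) : S a ⊆ S b := by
  have h1 := S_lor a b
  rw [h] at h1
  rw [h1]
  exact Set.subset_union_left

/-- Check that Maker, owning `R` and with `Z` unclaimed, wins by playing `x` and then `t`. -/
noncomputable def check (env : List (ℕ × ℕ)) (R Z x : ℕ) (t : T) : Bool :=
  eval env t fun R' Z' I' => guard (Nat.beq I' 0) (force (Nat.shiftLeft 1 x) fun b =>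
    guard (Nat.beq (Nat.land Z' b) 0)
      (guard (Nat.beq (Nat.lor (Nat.xor R' (Nat.land R' b)) R) R)
        (Nat.beq (Nat.lor (Nat.lor Z' b) Z) Z)))

theorem check_sound {env : List (ℕ × ℕ)} (henv : Env env) {R Z x : ℕ} {t : T}
    (h : check env R Z x t = true) : W (S R) (S Z) := by
  obtain ⟨R', Z', I', h1, h2⟩ := eval_sound env henv t _ h
  rw [guard_eq, force_eq, guard_eq, guard_eq] at h2
  obtain ⟨h3, h4, h5, h6⟩ := h2
  have hI : I' = 0 := Nat.eq_of_beq_eq_true h3
  subst hI
  have h7 := W.remove h1 (Nat.eq_of_beq_eq_true h4)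
  have h8 : Nat.lor (Nat.xor R' (Nat.land R' (Nat.shiftLeft 1 x))) R = R :=
    Nat.eq_of_beq_eq_true h5
  have h9 : Nat.lor (Nat.lor Z' (Nat.shiftLeft 1 x)) Z = Z := Nat.eq_of_beq_eq_true h6
  refine h7.mono ?_ ?_
  · exact subset_of_lor h8
  · exact subset_of_lor h9

end P062
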