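import Vale.Agent.P062.Check

/-!
# P062: from winning regions to a win on the empty board
-/

namespace P062

theorem sym_zero (s : Bool) (a b : ℤ) : sym s a b (0, 0) = (0, 0) := by
  cases s <;> simp [sym]

/-- the inverse of a signed permutation map -/
theorem sym_sym (s : Bool) {a b : ℤ} (ha : a = 1 ∨ a = -1) (hb : b = 1 ∨ b = -1) (p : Cell) :
    sym s (if s then b else a) (if s then a else b) (sym s a b p) = p := by
  rcases ha with rfl | rfl <;> rcases hb with rfl | rfl <;> cases s <;> simp [sym]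

/-- signed permutation maps as equivalences -/
def symEquiv (s : Bool) (a b : ℤ) (ha : a = 1 ∨ a = -1) (hb : b = 1 ∨ b = -1) : Cell ≃ Cell where
  toFun := sym s a b
  invFun := sym s (if s then b else a) (if s then a else b)
  left_inv := sym_sym s ha hb
  right_inv := by
    intro p
    rcases ha with rfl | rfl <;> rcases hb with rfl | rfl <;> cases s <;> simp [sym]

/-- If every cell `x ≠ 0` has a symmetric image outside a winning zone for the position in which
Maker owns the origin only, then Maker wins on the empty board. -/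
theorem winsIn_of_cover (L : List ℕ) (hL : ∀ Z ∈ L, W {(0, 0)} (S Z))
    (hcov : ∀ x : Cell, x ≠ (0, 0) → ∃ Z ∈ L, ∃ (s : Bool) (a b : ℤ), (a = 1 ∨ a = -1) ∧
      (b = 1 ∨ b = -1) ∧ sym s a b x ∉ S Z) :
    ∃ N, WinsIn N ∅ ∅ := by
  have hmax : ∃ n, ∀ Z ∈ L, ∀ M B : Finset Cell, ({(0, 0)} : Set Cell) ⊆ M →
      Disjoint (S Z) (B : Set Cell) → (HasCopy M ∨ WinsIn n M B) := by
    clear hcov
    induction L with
    | nil => exact ⟨0, fun Z hZ => absurd hZ (List.not_mem_nil)⟩
    | cons Z L ih =>
      obtain ⟨n, hn⟩ := ih fun Z' hZ' => hL Z' (List.mem_cons_of_mem _ hZ')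
      obtain ⟨m, hm⟩ := hL Z List.mem_cons_self
      refine ⟨max n m, fun Z' hZ' M B h1 h3 => ?_⟩
      rcases List.mem_cons.mp hZ' with rfl | hZ'
      · exact (hm M B h1 h3).imp id fun h => h.mono (le_max_right _ _)
      · exact (hn Z' hZ' M B h1 h3).imp id fun h => h.mono (le_max_left _ _)
  obtain ⟨n, hn⟩ := hmax
  refine ⟨n + 1, (0, 0), Finset.notMem_empty _, Finset.notMem_empty _, ?_⟩
  by_cases hc : HasCopy (insert ((0, 0) : Cell) ∅)
  · exact Or.inl hc
  · refine Or.inr fun x hx _ => ?_
    have hx0 : x ≠ (0, 0) := fun h => hx (by rw [h]; exact Finset.mem_insert_self _ _)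
    obtain ⟨Z, hZ, s, a, b, ha, hb, hxZ⟩ := hcov x hx0
    have h1 := hn Z hZ (insert (0, 0) ∅) (insert (sym s a b x) ∅) ?_ ?_
    · have h2 := h1.resolve_left hc
      have h3 := h2.image (symEquiv s a b ha hb).symm (fun C hC => ?_)
      · have e1 : ((insert ((0, 0) : Cell) ∅ : Finset Cell).image (symEquiv s a b ha hb).symm)
            = insert (0, 0) ∅ := by
          rw [Finset.image_insert, Finset.image_empty]
          congr 1
          exact sym_zero _ _ _
        have e2 : ((insert (sym s a b x) ∅ : Finset Cell).image (symEquiv s a b ha hb).symm)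
            = insert x ∅ := by
          rw [Finset.image_insert, Finset.image_empty]
          congr 1
          exact sym_sym s ha hb x
        rwa [e1, e2] at h3
      · refine hC.sym s ?_ ?_
        · cases s <;> simp [ha, hb]
        · cases s <;> simp [ha, hb]
    · intro c hc
      rw [Set.mem_singleton_iff] at hc
      rw [hc]
      exact Finset.mem_coe.mpr (Finset.mem_insert_self _ _)
    · rw [Set.disjoint_left]
      intro c hcZ hcM
      rw [Finset.mem_coe, Finset.mem_insert] at hcM
      rcases hcM with rfl | hcM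
      · exact hxZ hcZ
      · exact absurd hcM (Finset.notMem_empty _)

/-- the cell with coordinates `(i - 9, j - 9)` is outside of `Z` -/
def out (Z i j : ℕ) : Bool := !(Z.testBit (32 * (7 + j) + (7 + i)))

/-- some symmetric image of the cell is outside of `Z` -/
def out8 (Z i j : ℕ) : Bool :=
  out Z i j || out Z (18 - i) j || out Z i (18 - j) || out Z (18 - i) (18 - j) ||
  out Z j i || out Z (18 - j) i || out Z j (18 - i) || out Z (18 - j) (18 - i)

/-- bit mask of the box of all cells with coordinates between `-9` and `9` -/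
def box : ℕ := (List.range 19).foldl (fun m j => m ||| ((2 ^ 19 - 1) <<< (32 * (7 + j) + 7))) 0

theorem out_spec {Z i j : ℕ} (hi : i ≤ 18) (h : out Z i j = true) :
    (((i : ℤ) - 9, (j : ℤ) - 9) : Cell) ∉ S Z := by
  rintro ⟨k, hk, hk'⟩
  have : k = 32 * (7 + j) + (7 + i) := by
    unfold cellOf at hk'
    rw [Prod.mk.injEq] at hk'
    omega
  subst this
  unfold out at h
  rw [hk] at h
  exact Bool.false_ne_true h

/-- the Boolean covering test -/
def covers (L : List ℕ) : Bool :=
  (List.range 19).all fun i => (List.range 19).all fun j =>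
    (i == 9 && j == 9) || L.any fun Z => out8 Z i j

theorem cover_spec {L : List ℕ} (hne : L ≠ []) (hbox : ∀ Z ∈ L, Z ||| box = box)
    (h : covers L = true) (x : Cell) (hx : x ≠ (0, 0)) :
    ∃ Z ∈ L, ∃ (s : Bool) (a b : ℤ), (a = 1 ∨ a = -1) ∧ (b = 1 ∨ b = -1) ∧
      sym s a b x ∉ S Z := by
  obtain ⟨u, v⟩ := x
  by_cases hin : (-9 ≤ u ∧ u ≤ 9) ∧ (-9 ≤ v ∧ v ≤ 9)
  · obtain ⟨⟨hu1, hu2⟩, hv1, hv2⟩ := hin
    obtain ⟨i, hi⟩ : ∃ i : ℕ, (i : ℤ) = u + 9 := ⟨(u + 9).toNat, by omega⟩
    obtain ⟨j, hj⟩ : ∃ j : ℕ, (j : ℤ) = v + 9 := ⟨(v + 9).toNat, by omega⟩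
    have h1 : (i == 9 && j == 9) || L.any fun Z => out8 Z i j := by
      unfold covers at h
      rw [List.all_eq_true] at h
      have h2 := h i (List.mem_range.mpr (by omega))
      rw [List.all_eq_true] at h2
      exact h2 j (List.mem_range.mpr (by omega))
    rw [Bool.or_eq_true] at h1
    rcases h1 with h1 | h1
    · exfalso
      rw [Bool.and_eq_true, beq_iff_eq, beq_iff_eq] at h1
      apply hx
      rw [Prod.mk.injEq]
      omega
    · rw [List.any_eq_true] at h1
      obtain ⟨Z, hZ, h2⟩ := h1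
      refine ⟨Z, hZ, ?_⟩
      unfold out8 at h2
      simp only [Bool.or_eq_true] at h2
      have key : ∀ (s : Bool) (a b : ℤ) (i' j' : ℕ), (a = 1 ∨ a = -1) → (b = 1 ∨ b = -1) →
          i' ≤ 18 → out Z i' j' = true → sym s a b (u, v) = ((i' : ℤ) - 9, (j' : ℤ) - 9) →
          ∃ (s : Bool) (a b : ℤ), (a = 1 ∨ a = -1) ∧ (b = 1 ∨ b = -1) ∧
            sym s a b (u, v) ∉ S Z := by
        intro s a b i' j' ha hb hi' ho he
        refine ⟨s, a, b, ha, hb, ?_⟩
        rw [he]
        exact out_spec hi' ho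
      rcases h2 with ((((((h2 | h2) | h2) | h2) | h2) | h2) | h2) | h2
      · refine key false 1 1 _ _ (Or.inl rfl) (Or.inl rfl) (by omega) h2 ?_
        simp only [sym, Bool.false_eq_true, if_false, Prod.mk.injEq]; omega
      · refine key false (-1) 1 _ _ (Or.inr rfl) (Or.inl rfl) (by omega) h2 ?_
        simp only [sym, Bool.false_eq_true, if_false, Prod.mk.injEq]; omega
      · refine key false 1 (-1) _ _ (Or.inl rfl) (Or.inr rfl) (by omega) h2 ?_
        simp only [sym, Bool.false_eq_true, if_false, Prod.mk.injEq]; omega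
      · refine key false (-1) (-1) _ _ (Or.inr rfl) (Or.inr rfl) (by omega) h2 ?_
        simp only [sym, Bool.false_eq_true, if_false, Prod.mk.injEq]; omega
      · refine key true 1 1 _ _ (Or.inl rfl) (Or.inl rfl) (by omega) h2 ?_
        simp only [sym, if_true, Prod.mk.injEq]; omega
      · refine key true (-1) 1 _ _ (Or.inr rfl) (Or.inl rfl) (by omega) h2 ?_
        simp only [sym, if_true, Prod.mk.injEq]; omega
      · refine key true 1 (-1) _ _ (Or.inl rfl) (Or.inr rfl) (by omega) h2 ?_
        simp only [sym, if_true, Prod.mk.injEq]; omega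
      · refine key true (-1) (-1) _ _ (Or.inr rfl) (Or.inr rfl) (by omega) h2 ?_
        simp only [sym, if_true, Prod.mk.injEq]; omega
  · obtain ⟨Z, hZ⟩ := List.exists_mem_of_ne_nil L hne
    refine ⟨Z, hZ, false, 1, 1, Or.inl rfl, Or.inl rfl, ?_⟩
    have e : sym false 1 1 (u, v) = (u, v) := by simp [sym]
    rw [e]
    intro hmem
    have h3 : (u, v) ∈ S box := by
      rw [← hbox Z hZ]
      have := S_lor Z box
      rw [show (Z ||| box) = Nat.lor Z box from rfl, this]
      exact Or.inl hmem
    apply hin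
    obtain ⟨k, hk, hk'⟩ := h3
    have hk2 : ∀ k < 1024, box.testBit k = true → 7 ≤ k % 32 ∧ k % 32 ≤ 25 ∧ 7 ≤ k / 32 ∧
        k / 32 ≤ 25 := by decide +kernel
    have hk3 : k < 1024 := by
      by_contra hge
      have h4 : box < 2 ^ k := lt_of_lt_of_le (by decide +kernel : box < 2 ^ 1024)
        (Nat.pow_le_pow_right (by norm_num) (by omega))
      rw [Nat.testBit_lt_two_pow h4] at hk
      exact Bool.false_ne_true hk
    have h5 := hk2 k hk3 hk
    unfold cellOf at hk'
    rw [Prod.mk.injEq] at hk'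
    omega

end P062
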