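import Vale.Agent.P062.Cover

/-!
# P062: reflecting certified regions
-/

namespace P062

/-- number of the cell that is the reflection (in the horizontal axis) of the cell number `i` -/
def flipIdx (i : ℕ) : ℕ := 32 * (32 - i / 32) + i % 32

/-- the mask `b` is the reflection of the mask `a` -/
def flipOK (a b : ℕ) : Bool :=
  Nat.blt a (2 ^ 1056) && (Nat.blt b (2 ^ 1056) &&
    (List.range 1056).all fun i => a.testBit i == b.testBit (flipIdx i))

theorem flipIdx_lt {i : ℕ} (h : i < 1056) : flipIdx i < 1056 := by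
  unfold flipIdx; omega

theorem flipIdx_flipIdx {i : ℕ} (h : i < 1056) : flipIdx (flipIdx i) = i := by
  unfold flipIdx; omega

theorem cellOf_flipIdx {i : ℕ} (h : i < 1056) :
    cellOf (flipIdx i) = ((cellOf i).1, -(cellOf i).2) := by
  unfold flipIdx cellOf
  ext <;> dsimp only <;> omega

theorem S_flip {a b : ℕ} (h : flipOK a b = true) :
    S b = (symEquiv false 1 (-1) (Or.inl rfl) (Or.inr rfl)) '' S a := by
  unfold flipOK at h
  rw [Bool.and_eq_true, Bool.and_eq_true, List.all_eq_true] at h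
  obtain ⟨ha, hb, h⟩ := h
  have ha' : a < 2 ^ 1056 := by
    have := Nat.le_of_ble_eq_true ha
    exact this
  have hb' : b < 2 ^ 1056 := by
    have := Nat.le_of_ble_eq_true hb
    exact this
  have hlt : ∀ {m i : ℕ}, m < 2 ^ 1056 → m.testBit i = true → i < 1056 := by
    intro m i hm hi
    by_contra hge
    rw [Nat.testBit_lt_two_pow (lt_of_lt_of_le hm (Nat.pow_le_pow_right (by norm_num)
      (not_lt.mp hge)))] at hi
    exact Bool.false_ne_true hi
  have hab : ∀ i < 1056, a.testBit i = b.testBit (flipIdx i) := fun i hi =>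
    eq_of_beq (h i (List.mem_range.mpr hi))
  have hsym : ∀ p : Cell, (symEquiv false 1 (-1) (Or.inl rfl) (Or.inr rfl)) p = (p.1, -p.2) := by
    intro p
    change sym false 1 (-1) p = _
    simp [sym]
  ext c
  constructor
  · rintro ⟨j, hj, rfl⟩
    have hj' := hlt hb' hj
    refine ⟨cellOf (flipIdx j), ⟨flipIdx j, ?_, rfl⟩, ?_⟩
    · rw [hab _ (flipIdx_lt hj'), flipIdx_flipIdx hj']
      exact hj
    · rw [hsym, cellOf_flipIdx hj']
      simp
  · rintro ⟨d, ⟨i, hi, rfl⟩, rfl⟩
    have hi' := hlt ha' hi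
    refine ⟨flipIdx i, ?_, ?_⟩
    · rw [← hab i hi']
      exact hi
    · rw [hsym, cellOf_flipIdx hi']

theorem W.flip {R Z R' Z' : ℕ} (h : W (S R) (S Z)) (hR : flipOK R R' = true)
    (hZ : flipOK Z Z' = true) : W (S R') (S Z') := by
  rw [S_flip hR, S_flip hZ]
  exact h.image _ fun C hC => hC.sym false (Or.inl rfl) (Or.inr rfl)

theorem S_origin : S (2 ^ 528) = {(0, 0)} := by
  have h : (2 : ℕ) ^ 528 = Nat.shiftLeft 1 528 := (Nat.one_shiftLeft 528).symm
  rw [h, S_bit]
  congr 1

end P062
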