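import Mathlib

/-!
# P062: the Snaky achievement game in the plane: definitions and general facts
-/

namespace P062

/-- cells of the square grid -/
abbrev Cell := ℤ × ℤ

/-- Snaky -/
def snaky : Finset Cell := {(0, 0), (1, 0), (2, 0), (3, 0), (3, 1), (4, 1)}

/-- An allowed copy of Snaky: a translate of the image of Snaky under one of the eight signed
permutation matrices `(u, v) ↦ (a u, b v)`, `(u, v) ↦ (a v, b u)`, `a, b ∈ {1, -1}`. -/
def IsCopy (C : Finset Cell) : Prop :=
  ∃ (a b : ℤ) (t : Cell), (a = 1 ∨ a = -1) ∧ (b = 1 ∨ b = -1) ∧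
    (C = snaky.image (fun p => (t.1 + a * p.1, t.2 + b * p.2)) ∨
      C = snaky.image (fun p => (t.1 + a * p.2, t.2 + b * p.1)))

/-- `M` contains an allowed copy. -/
def HasCopy (M : Finset Cell) : Prop := ∃ C, IsCopy C ∧ C ⊆ M

/-- Maker's `(n+1)`-st move when Maker uses the strategy `σ` (a function of the list of the
previous Breaker moves) against the sequence `b` of Breaker moves. -/
def makerMove (σ : List Cell → Cell) (b : ℕ → Cell) (n : ℕ) : Cell := σ ((List.range n).map b)

/-- The cells claimed by Maker in the first `n` turns. -/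
def makerCells (σ : List Cell → Cell) (b : ℕ → Cell) (n : ℕ) : Finset Cell :=
  (Finset.range n).image (makerMove σ b)

/-- The cells claimed by Breaker in the first `n` turns. -/
def breakerCells (b : ℕ → Cell) (n : ℕ) : Finset Cell := (Finset.range n).image b

/-- The `i`-th move of Maker is legal: the cell is unclaimed. -/
def MakerLegal (σ : List Cell → Cell) (b : ℕ → Cell) (i : ℕ) : Prop :=
  makerMove σ b i ∉ makerCells σ b i ∧ makerMove σ b i ∉ breakerCells b i

/-- The `i`-th move of Breaker is legal: the cell is unclaimed. -/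
def BreakerLegal (σ : List Cell → Cell) (b : ℕ → Cell) (i : ℕ) : Prop :=
  b i ∉ makerCells σ b (i + 1) ∧ b i ∉ breakerCells b i

/-- The strategy `σ` of Maker (who moves first on the empty board) wins after at most `N` moves
of Maker against every play of Breaker. -/
def WinsWithin (σ : List Cell → Cell) (N : ℕ) : Prop :=
  ∀ b : ℕ → Cell, (∀ i, i + 1 < N → BreakerLegal σ b i) →
    ∃ n < N, (∀ i ≤ n, MakerLegal σ b i) ∧ HasCopy (makerCells σ b (n + 1))

/-- Maker to move wins after at most `n` further moves from the position where Maker owns `M` and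
Breaker owns `B`. -/
def WinsIn : ℕ → Finset Cell → Finset Cell → Prop
  | 0, _, _ => False
  | n + 1, M, B => ∃ x, x ∉ M ∧ x ∉ B ∧ (HasCopy (insert x M) ∨
      ∀ y, y ∉ insert x M → y ∉ B → WinsIn n (insert x M) (insert y B))

lemma WinsIn.succ {n : ℕ} {M B : Finset Cell} (h : WinsIn n M B) : WinsIn (n + 1) M B := by
  induction n generalizing M B with
  | zero => exact absurd h (by simp [WinsIn])
  | succ n ih =>
    obtain ⟨x, hM, hB, hx⟩ := h
    refine ⟨x, hM, hB, ?_⟩
    rcases hx with hx | hx
    · exact Or.inl hx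
    · exact Or.inr fun y hy1 hy2 => ih (hx y hy1 hy2)

lemma WinsIn.mono {n m : ℕ} (hnm : n ≤ m) {M B : Finset Cell} (h : WinsIn n M B) :
    WinsIn m M B := by
  induction hnm with
  | refl => exact h
  | step _ ih => exact ih.succ

/-! ### From positions to strategies -/

open Classical in
/-- A good move of Maker at the position `(M, B)`, if there is one. -/
noncomputable def best (n : ℕ) (M B : Finset Cell) : Cell :=
  if h : ∃ x, x ∉ M ∧ x ∉ B ∧ (HasCopy (insert x M) ∨
      ∀ y, y ∉ insert x M → y ∉ B → WinsIn (n - 1) (insert x M) (insert y B))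
  then h.choose else 0

/-- The strategy which follows the good moves. -/
noncomputable def run : ℕ → Finset Cell → Finset Cell → List Cell → Cell
  | n, M, B, [] => best n M B
  | n, M, B, y :: l => run (n - 1) (insert (best n M B) M) (insert y B) l

lemma makerMove_run_succ (n : ℕ) (M B : Finset Cell) (b : ℕ → Cell) (k : ℕ) :
    makerMove (run n M B) b (k + 1)
      = makerMove (run (n - 1) (insert (best n M B) M) (insert (b 0) B)) (fun i => b (i + 1)) k := by
  unfold makerMove
  rw [List.range_succ_eq_map, List.map_cons, List.map_map]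
  rfl

lemma makerMove_run_zero (n : ℕ) (M B : Finset Cell) (b : ℕ → Cell) :
    makerMove (run n M B) b 0 = best n M B := rfl

lemma makerCells_succ (σ : List Cell → Cell) (b : ℕ → Cell) (k : ℕ) :
    makerCells σ b (k + 1) = insert (makerMove σ b 0)
      ((Finset.range k).image fun i => makerMove σ b (i + 1)) := by
  unfold makerCells
  ext c
  simp only [Finset.mem_image, Finset.mem_range, Finset.mem_insert]
  constructor
  · rintro ⟨i, hi, rfl⟩
    rcases i with _ | i
    · exact Or.inl rfl
    · exact Or.inr ⟨i, by omega, rfl⟩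
  · rintro (rfl | ⟨i, hi, rfl⟩)
    · exact ⟨0, by omega, rfl⟩
    · exact ⟨i + 1, by omega, rfl⟩

lemma makerCells_run_succ (n : ℕ) (M B : Finset Cell) (b : ℕ → Cell) (k : ℕ) :
    makerCells (run n M B) b (k + 1) = insert (best n M B)
      (makerCells (run (n - 1) (insert (best n M B) M) (insert (b 0) B))
        (fun i => b (i + 1)) k) := by
  rw [makerCells_succ, makerMove_run_zero]
  unfold makerCells
  congr 1
  exact Finset.image_congr fun i _ => makerMove_run_succ n M B b i

lemma breakerCells_succ (b : ℕ → Cell) (k : ℕ) :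
    breakerCells b (k + 1) = insert (b 0) (breakerCells (fun i => b (i + 1)) k) := by
  unfold breakerCells
  ext c
  simp only [Finset.mem_image, Finset.mem_range, Finset.mem_insert]
  constructor
  · rintro ⟨i, hi, rfl⟩
    rcases i with _ | i
    · exact Or.inl rfl
    · exact Or.inr ⟨i, by omega, rfl⟩
  · rintro (rfl | ⟨i, hi, rfl⟩)
    · exact ⟨0, by omega, rfl⟩
    · exact ⟨i + 1, by omega, rfl⟩

lemma best_spec {n : ℕ} {M B : Finset Cell} (h : WinsIn (n + 1) M B) :
    best (n + 1) M B ∉ M ∧ best (n + 1) M B ∉ B ∧ (HasCopy (insert (best (n + 1) M B) M) ∨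
      ∀ y, y ∉ insert (best (n + 1) M B) M → y ∉ B →
        WinsIn n (insert (best (n + 1) M B) M) (insert y B)) := by
  have h' : ∃ x, x ∉ M ∧ x ∉ B ∧ (HasCopy (insert x M) ∨
      ∀ y, y ∉ insert x M → y ∉ B → WinsIn (n + 1 - 1) (insert x M) (insert y B)) := h
  unfold best
  rw [dif_pos h']
  exact h'.choose_spec

theorem run_wins (n : ℕ) (M B : Finset Cell) (h : WinsIn n M B) (b : ℕ → Cell)
    (hb : ∀ i, i + 1 < n → (b i ∉ M ∧ b i ∉ makerCells (run n M B) b (i + 1)) ∧
      (b i ∉ B ∧ b i ∉ breakerCells b i)) :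
    ∃ k < n, (∀ i ≤ k, (makerMove (run n M B) b i ∉ M ∧
        makerMove (run n M B) b i ∉ makerCells (run n M B) b i) ∧
        (makerMove (run n M B) b i ∉ B ∧ makerMove (run n M B) b i ∉ breakerCells b i)) ∧
      HasCopy (M ∪ makerCells (run n M B) b (k + 1)) := by
  induction n generalizing M B b with
  | zero => exact absurd h (by simp [WinsIn])
  | succ n ih =>
    obtain ⟨h1, h2, h3⟩ := best_spec h
    set x := best (n + 1) M B with hx
    have hfirst : (makerMove (run (n + 1) M B) b 0 ∉ M ∧
        makerMove (run (n + 1) M B) b 0 ∉ makerCells (run (n + 1) M B) b 0) ∧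
        (makerMove (run (n + 1) M B) b 0 ∉ B ∧
          makerMove (run (n + 1) M B) b 0 ∉ breakerCells b 0) := by
      rw [makerMove_run_zero, ← hx]
      exact ⟨⟨h1, by simp [makerCells]⟩, ⟨h2, by simp [breakerCells]⟩⟩
    by_cases hc : HasCopy (insert x M)
    · refine ⟨0, Nat.succ_pos n, ?_, ?_⟩
      · intro i hi
        obtain rfl : i = 0 := by omega
        exact hfirst
      · obtain ⟨C, hC1, hC2⟩ := hc
        refine ⟨C, hC1, fun c hcC => ?_⟩
        rcases Finset.mem_insert.mp (hC2 hcC) with rfl | hm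
        · refine Finset.mem_union_right _ ?_
          rw [makerCells_run_succ]
          exact Finset.mem_insert_self _ _
        · exact Finset.mem_union_left _ hm
    · have h4 := h3.resolve_left hc
      rcases Nat.eq_zero_or_pos n with hn | hn
      · subst hn
        exfalso
        -- there is a free cell, from which `WinsIn 0` would follow
        obtain ⟨y, hy⟩ := Infinite.exists_notMem_finset (insert x M ∪ B)
        rw [Finset.mem_union, not_or] at hy
        exact h4 y hy.1 hy.2
      · obtain ⟨⟨hb1, hb2⟩, hb3, hb4⟩ := hb 0 (by omega)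
        rw [makerCells_run_succ, ← hx] at hb2
        have hb5 : b 0 ∉ insert x M := by
          intro hmem
          rcases Finset.mem_insert.mp hmem with h | h
          · exact hb2 (by rw [h]; exact Finset.mem_insert_self _ _)
          · exact hb1 h
        have h5 := h4 (b 0) hb5 hb3
        have key := ih (insert x M) (insert (b 0) B) h5 (fun i => b (i + 1)) (by
          intro i hi
          obtain ⟨⟨g1, g2⟩, g3, g4⟩ := hb (i + 1) (by omega)
          rw [makerCells_run_succ, ← hx, Nat.add_sub_cancel, Finset.mem_insert, not_or] at g2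
          rw [breakerCells_succ, Finset.mem_insert, not_or] at g4
          refine ⟨⟨?_, g2.2⟩, ?_, g4.2⟩
          · rw [Finset.mem_insert, not_or]
            exact ⟨g2.1, g1⟩
          · rw [Finset.mem_insert, not_or]
            exact ⟨g4.1, g3⟩)
        obtain ⟨k, hk, hk1, hk2⟩ := key
        refine ⟨k + 1, by omega, ?_, ?_⟩
        · intro i hi
          rcases i with _ | i
          · exact hfirst
          · obtain ⟨⟨g1, g2⟩, g3, g4⟩ := hk1 i (by omega)
            rw [Finset.mem_insert, not_or] at g1 g3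
            rw [makerMove_run_succ, ← hx, Nat.add_sub_cancel]
            refine ⟨⟨g1.2, ?_⟩, g3.2, ?_⟩
            · rw [makerCells_run_succ, ← hx, Nat.add_sub_cancel, Finset.mem_insert, not_or]
              exact ⟨g1.1, g2⟩
            · rw [breakerCells_succ, Finset.mem_insert, not_or]
              exact ⟨g3.1, g4⟩
        · obtain ⟨C, hC1, hC2⟩ := hk2
          refine ⟨C, hC1, fun c hcC => ?_⟩
          rw [makerCells_run_succ, ← hx, Nat.add_sub_cancel]
          have := hC2 hcC
          simp only [Finset.mem_union, Finset.mem_insert] at this ⊢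
          tauto

theorem exists_strategy {N : ℕ} (h : WinsIn N ∅ ∅) :
    ∃ σ : List Cell → Cell, WinsWithin σ N := by
  refine ⟨run N ∅ ∅, fun b hb => ?_⟩
  obtain ⟨k, hk, hk1, hk2⟩ := run_wins N ∅ ∅ h b (fun i hi =>
    ⟨⟨Finset.notMem_empty _, (hb i hi).1⟩, ⟨Finset.notMem_empty _, (hb i hi).2⟩⟩)
  refine ⟨k, hk, fun i hi => ⟨(hk1 i hi).1.2, (hk1 i hi).2.2⟩, ?_⟩
  rwa [Finset.empty_union] at hk2

/-! ### Regions: required cells and zones -/

/-- Maker wins (or has already won) from every position in which Maker owns (at least) `R` and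
Breaker owns no cell of `Z`. -/
def W (R Z : Set Cell) : Prop :=
  ∃ n, ∀ M B : Finset Cell, R ⊆ M → Disjoint Z (B : Set Cell) → (HasCopy M ∨ WinsIn n M B)

/-- The same after one more arbitrary Breaker move outside `I`. -/
def Alt (R Z I : Set Cell) : Prop :=
  ∃ n, ∀ (M B : Finset Cell) (y : Cell), R ⊆ M → Disjoint Z (B : Set Cell) → y ∉ I →
    (HasCopy M ∨ WinsIn n M (insert y B))

lemma W.alt {R Z : Set Cell} (h : W R Z) : Alt R Z Z := by
  obtain ⟨n, hn⟩ := h
  refine ⟨n, fun M B y hR hZB hy => hn M (insert y B) hR ?_⟩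
  rw [Set.disjoint_left] at hZB ⊢
  intro c hc hcB
  rw [Finset.coe_insert, Set.mem_insert_iff] at hcB
  rcases hcB with rfl | hcB
  · exact hy hc
  · exact hZB hc hcB

lemma Alt.both {R Z I R' Z' I' : Set Cell} (h : Alt R Z I) (h' : Alt R' Z' I') :
    Alt (R ∪ R') (Z ∪ Z') (I ∩ I') := by
  obtain ⟨n, hn⟩ := h
  obtain ⟨m, hm⟩ := h'
  refine ⟨max n m, fun M B y hR hZB hy => ?_⟩
  rw [Set.union_subset_iff] at hR
  rw [Set.disjoint_union_left] at hZB
  by_cases hyI : y ∈ I
  · have hyI' : y ∉ I' := fun h => hy ⟨hyI, h⟩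
    rcases hm M B y hR.2 hZB.2 hyI' with h | h
    · exact Or.inl h
    · exact Or.inr (h.mono (le_max_right _ _))
  · rcases hn M B y hR.1 hZB.1 hyI with h | h
    · exact Or.inl h
    · exact Or.inr (h.mono (le_max_left _ _))

/-- There is always a free cell. -/
lemma exists_free (M B : Finset Cell) : ∃ x : Cell, x ∉ M ∧ x ∉ B := by
  obtain ⟨x, hx⟩ := Infinite.exists_notMem_finset (M ∪ B)
  rw [Finset.mem_union, not_or] at hx
  exact ⟨x, hx⟩

lemma Alt.move {R Z : Set Cell} (h : Alt R Z ∅) (x : Cell) : W (R \ {x}) (insert x Z) := by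
  obtain ⟨n, hn⟩ := h
  refine ⟨n + 1, fun M B hR hZB => ?_⟩
  have hxB : x ∉ B := fun hxB => Set.disjoint_left.mp hZB (Set.mem_insert _ _) hxB
  have hZB' : Disjoint Z (B : Set Cell) := hZB.mono_left (Set.subset_insert _ _)
  -- the move: `x`, or any free cell if Maker already owns `x`
  obtain ⟨x', hx'M, hx'B, hRx'⟩ : ∃ x', x' ∉ M ∧ x' ∉ B ∧ R ⊆ (insert x' M : Finset Cell) := by
    by_cases hxM : x ∈ M
    · obtain ⟨x', h1, h2⟩ := exists_free M B
      refine ⟨x', h1, h2, fun c hcR => ?_⟩
      rw [Finset.coe_insert, Set.mem_insert_iff]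
      by_cases hcx : c = x
      · exact Or.inr (by rw [hcx]; exact hxM)
      · exact Or.inr (hR ⟨hcR, hcx⟩)
    · refine ⟨x, hxM, hxB, fun c hcR => ?_⟩
      rw [Finset.coe_insert, Set.mem_insert_iff]
      by_cases hcx : c = x
      · exact Or.inl hcx
      · exact Or.inr (hR ⟨hcR, hcx⟩)
  refine Or.inr ⟨x', hx'M, hx'B, ?_⟩
  by_cases hc : HasCopy (insert x' M)
  · exact Or.inl hc
  · exact Or.inr fun y _ _ =>
      (hn (insert x' M) B y hRx' hZB' (Set.notMem_empty _)).resolve_left hc

/-- Owning a copy. -/
lemma W.copy {C : Finset Cell} (hC : IsCopy C) : W (C : Set Cell) ∅ :=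
  ⟨0, fun _ _ hR _ => Or.inl ⟨C, hC, by exact_mod_cast hR⟩⟩

/-- One missing cell. -/
lemma W.five {C : Finset Cell} (hC : IsCopy C) (y : Cell) :
    W ((C : Set Cell) \ {y}) {y} := by
  have h := Alt.move (W.copy hC).alt y
  simpa using h

lemma W.mono {R Z R' Z' : Set Cell} (h : W R Z) (hR : R ⊆ R') (hZ : Z ⊆ Z') : W R' Z' := by
  obtain ⟨n, hn⟩ := h
  exact ⟨n, fun M B h1 h3 => hn M B (hR.trans h1) (h3.mono_left hZ)⟩

/-! ### Symmetry -/

/-- signed permutation maps of the plane -/
def sym (s : Bool) (a b : ℤ) (p : Cell) : Cell :=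
  if s then (a * p.2, b * p.1) else (a * p.1, b * p.2)

lemma IsCopy.sym {C : Finset Cell} (h : IsCopy C) (s : Bool) {a b : ℤ} (ha : a = 1 ∨ a = -1)
    (hb : b = 1 ∨ b = -1) : IsCopy (C.image (sym s a b)) := by
  obtain ⟨a', b', t, ha', hb', h⟩ := h
  have mul_sign : ∀ {u v : ℤ}, (u = 1 ∨ u = -1) → (v = 1 ∨ v = -1) → (u * v = 1 ∨ u * v = -1) := by
    intro u v hu hv
    rcases hu with rfl | rfl <;> rcases hv with rfl | rfl <;> simp
  cases s
  · refine ⟨a * a', b * b', (a * t.1, b * t.2), mul_sign ha ha', mul_sign hb hb', ?_⟩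
    rcases h with rfl | rfl
    · left
      rw [Finset.image_image]
      refine Finset.image_congr fun p _ => ?_
      simp only [P062.sym, Function.comp, Bool.false_eq_true, if_false, Prod.mk.injEq]
      constructor <;> ring
    · right
      rw [Finset.image_image]
      refine Finset.image_congr fun p _ => ?_
      simp only [P062.sym, Function.comp, Bool.false_eq_true, if_false, Prod.mk.injEq]
      constructor <;> ring
  · refine ⟨a * b', b * a', (a * t.2, b * t.1), mul_sign ha hb', mul_sign hb ha', ?_⟩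
    rcases h with rfl | rfl
    · right
      rw [Finset.image_image]
      refine Finset.image_congr fun p _ => ?_
      simp only [P062.sym, Function.comp, if_true, Prod.mk.injEq]
      constructor <;> ring
    · left
      rw [Finset.image_image]
      refine Finset.image_congr fun p _ => ?_
      simp only [P062.sym, Function.comp, if_true, Prod.mk.injEq]
      constructor <;> ring

lemma HasCopy.image {M : Finset Cell} {g : Cell → Cell}
    (hg : ∀ C, IsCopy C → IsCopy (C.image g)) (h : HasCopy M) : HasCopy (M.image g) := by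
  obtain ⟨C, h1, h2⟩ := h
  exact ⟨C.image g, hg C h1, Finset.image_subset_image h2⟩

lemma mem_image_equiv {M : Finset Cell} {e : Cell ≃ Cell} {y : Cell} :
    y ∈ M.image e ↔ e.symm y ∈ M := by
  rw [Finset.mem_image]
  constructor
  · rintro ⟨a, ha, rfl⟩
    rwa [Equiv.symm_apply_apply]
  · intro h
    exact ⟨e.symm y, h, e.apply_symm_apply y⟩

lemma WinsIn.image {n : ℕ} {M B : Finset Cell} (e : Cell ≃ Cell)
    (hg : ∀ C, IsCopy C → IsCopy (C.image e)) (h : WinsIn n M B) :
    WinsIn n (M.image e) (B.image e) := by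
  induction n generalizing M B with
  | zero => exact h
  | succ n ih =>
    obtain ⟨x, hM, hB, hx⟩ := h
    refine ⟨e x, ?_, ?_, ?_⟩
    · rwa [mem_image_equiv, Equiv.symm_apply_apply]
    · rwa [mem_image_equiv, Equiv.symm_apply_apply]
    · rcases hx with hx | hx
      · left
        rw [← Finset.image_insert]
        exact hx.image hg
      · right
        intro y hy1 hy2
        have := ih (hx (e.symm y) (by
          rw [← Finset.image_insert, mem_image_equiv] at hy1
          exact hy1) (by
          rw [mem_image_equiv] at hy2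
          exact hy2))
        rwa [Finset.image_insert, Finset.image_insert, Equiv.apply_symm_apply] at this

lemma W.image {R Z : Set Cell} (h : W R Z) (e : Cell ≃ Cell)
    (hg : ∀ C, IsCopy C → IsCopy (C.image e)) : W (e '' R) (e '' Z) := by
  obtain ⟨n, hn⟩ := h
  refine ⟨n, fun M B hR hZB => ?_⟩
  have hMe : (M.image e.symm).image e = M := by
    rw [Finset.image_image]
    simp
  have hBe : (B.image e.symm).image e = B := by
    rw [Finset.image_image]
    simp
  have key := hn (M.image e.symm) (B.image e.symm) ?_ ?_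
  · rcases key with h | h
    · left
      rw [← hMe]
      exact h.image hg
    · right
      rw [← hMe, ← hBe]
      exact h.image e hg
  · intro c hc
    rw [Finset.coe_image]
    exact ⟨e c, hR ⟨c, hc, rfl⟩, e.symm_apply_apply c⟩
  · rw [Set.disjoint_left] at hZB ⊢
    intro c hc hcM
    rw [Finset.coe_image] at hcM
    obtain ⟨d, hd, rfl⟩ := hcM
    exact hZB ⟨e.symm d, hc, rfl⟩ (by rwa [Equiv.apply_symm_apply])

end P062
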