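import Vale.Agent.P062.Adj
import Vale.Agent.P062.Cert.C18
import Vale.Agent.P062.Cert.C19
import Vale.Agent.P062.Cert.C20
import Vale.Agent.P062.Cert.C21
import Vale.Agent.P062.Cert.C22
import Vale.Agent.P062.Cert.C23

/-! Maker wins the Snaky achievement game -/

namespace P062

set_option maxRecDepth 100000

/-- the zones of the certificates -/
def zones : List ℕ :=
  [3058964957845386809424217357410651604390552936034526904514841759920057783367723338783027400149749378343841889194323550512315107703463696633113470184906089093111867784764452762706379296765798380508148388095801093206714628542994703574135450250510336,
    882896351741303297370893241659833763652610464874507718621614049436086038488037169201181473869329423525298041532752971803766886488830095254760271959990113373407669469432664143117164735647133384895217648271360,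
    11031304530778982935857949307339932605783513886571273587925064606069339546862825980341732093595244297634757221825088815992737305072167229071852154786069474668578327315201134781774899740582476094883582941276427939479552,
    47379092191912357113651957976650863295570375494873804878417906062442384840846638029211750329456111313791314031445998584589633387949621639161543405710961742977033328805498126967671340231758814018241636055087694422080804312055808,
    859636811679670645482925381433210036455285365190974076839173194134140601884056766826889355076014318235847224883941913393001999812393134944100735029811714093923762458539857556514684163637552548413440,
    1284212871354336353194813779324207787539654444580989164907605738911985156013631897057059840588071586888908245128649549800635230633602339277620495616873688628063464314610061549013427676932834692745234424528896,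
    2757826136366791900231598933211650946340058040939987191254676962591042188953029879170034632488082989080527461287404833684562830695016190339037745173284253655593484549059261048902600961333227318930748222345789099212800]

theorem W_origin {Z : ℕ} (h : W (S 878694100496718043517683302282418331810487718418343092402491322775749527474899974671687634004666183037093927858109549828751614463963730408009475621262727315456) (S Z)) : W {(0, 0)} (S Z) := by
  have e : (878694100496718043517683302282418331810487718418343092402491322775749527474899974671687634004666183037093927858109549828751614463963730408009475621262727315456 : ℕ) = 2 ^ 528 := by decide +kernel
  rw [e, S_origin] at h
  exact h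

theorem zones_win : ∀ Z ∈ zones, W {(0, 0)} (S Z) := by
  intro Z hZ
  simp only [zones, List.mem_cons, List.not_mem_nil, or_false] at hZ
  rcases hZ with rfl | rfl | rfl | rfl | rfl | rfl | rfl
  · exact W_origin Cert.adj
  · exact W_origin Cert.L100
  · exact W_origin Cert.L106
  · exact W_origin Cert.L111
  · exact W_origin Cert.L113
  · exact W_origin Cert.L115
  · exact W_origin Cert.L117

theorem exists_winsIn : ∃ N, WinsIn N ∅ ∅ :=
  winsIn_of_cover zones zones_win fun x hx =>
    cover_spec (by decide) (by decide +kernel) (by decide +kernel) x hx

theorem maker_wins : ∃ (N : ℕ) (σ : List Cell → Cell), WinsWithin σ N := by
  obtain ⟨N, hN⟩ := exists_winsIn
  obtain ⟨σ, hσ⟩ := exists_strategy hN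
  exact ⟨N, σ, hσ⟩

end P062
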